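import Mathlib

/-!
A small reflective engine for polynomial nonnegativity certificates (Polya / Bernstein type),
evaluated by the kernel.

* `Poly` : sparse polynomials in four variables with rational coefficients (lists of terms),
  with computable `add`, `mul`, `pow`; `Poly.eval` is the value at a real point.
* `PE` : polynomial expressions, `PE.eval` and `PE.norm`, with `PE.eval_norm`.
* `bilinOK M Is Js` : computes all coefficients of `sum_{j,l} M j l * I_j(u) * J_l(v)` and tests
  that they are nonnegative; `bilin_nonneg` is the soundness theorem.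
-/

namespace Vale.Agent.P154.Q4C

/-- exponent vector of a monomial in four variables -/
abbrev Mon := ℕ × ℕ × ℕ × ℕ

/-- lexicographic comparison -/
def Mon.lt (a b : Mon) : Bool :=
  if a.1 = b.1 then
    if a.2.1 = b.2.1 then
      if a.2.2.1 = b.2.2.1 then Nat.blt a.2.2.2 b.2.2.2 else Nat.blt a.2.2.1 b.2.2.1
    else Nat.blt a.2.1 b.2.1
  else Nat.blt a.1 b.1

def Mon.mul (a b : Mon) : Mon := (a.1 + b.1, a.2.1 + b.2.1, a.2.2.1 + b.2.2.1, a.2.2.2 + b.2.2.2)

/-- value of a monomial -/
noncomputable def Mon.eval (a : Mon) (v : ℕ → ℝ) : ℝ :=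
  v 0 ^ a.1 * v 1 ^ a.2.1 * v 2 ^ a.2.2.1 * v 3 ^ a.2.2.2

theorem Mon.eval_mul (a b : Mon) (v : ℕ → ℝ) : (a.mul b).eval v = a.eval v * b.eval v := by
  simp only [Mon.eval, Mon.mul, pow_add]
  ring

theorem Mon.eval_nonneg (a : Mon) {v : ℕ → ℝ} (hv : ∀ i, 0 ≤ v i) : 0 ≤ a.eval v := by
  unfold Mon.eval
  have h0 := hv 0
  have h1 := hv 1
  have h2 := hv 2
  have h3 := hv 3
  positivity

/-- sparse polynomials -/
abbrev Poly := List (Mon × ℚ)

noncomputable def Poly.eval : Poly → (ℕ → ℝ) → ℝ
  | [], _ => 0
  | t :: p, v => (t.2 : ℝ) * t.1.eval v + Poly.eval p v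

theorem Poly.eval_append (p q : Poly) (v : ℕ → ℝ) :
    Poly.eval (p ++ q) v = Poly.eval p v + Poly.eval q v := by
  induction p with
  | nil => simp [Poly.eval]
  | cons t p ih =>
    simp only [List.cons_append, Poly.eval, ih]
    ring

/-- merge of two sorted lists of terms, with fuel -/
def addF : ℕ → Poly → Poly → Poly
  | 0, p, q => p ++ q
  | _ + 1, [], q => q
  | _ + 1, p, [] => p
  | n + 1, s :: p, t :: q =>
    if s.1 = t.1 then (s.1, s.2 + t.2) :: addF n p q
    else if s.1.lt t.1 then s :: addF n p (t :: q)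
    else t :: addF n (s :: p) q

theorem eval_addF (n : ℕ) : ∀ (p q : Poly) (v : ℕ → ℝ),
    Poly.eval (addF n p q) v = Poly.eval p v + Poly.eval q v := by
  induction n with
  | zero =>
    intro p q v
    simp [addF, Poly.eval_append]
  | succ n ih =>
    intro p q v
    cases p with
    | nil => simp [addF, Poly.eval]
    | cons s p =>
      cases q with
      | nil => simp [addF, Poly.eval]
      | cons t q =>
        simp only [addF]
        split_ifs with h1 h2
        · simp only [Poly.eval, ih, h1]
          push_cast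
          ring
        · simp only [Poly.eval, ih]
          ring
        · simp only [Poly.eval, ih]
          ring

def Poly.add (p q : Poly) : Poly := addF (p.length + q.length) p q

theorem Poly.eval_add (p q : Poly) (v : ℕ → ℝ) :
    Poly.eval (Poly.add p q) v = Poly.eval p v + Poly.eval q v := eval_addF _ p q v

/-- product with one term -/
def mulT (t : Mon × ℚ) : Poly → Poly
  | [] => []
  | s :: q => (t.1.mul s.1, t.2 * s.2) :: mulT t q

theorem eval_mulT (t : Mon × ℚ) (q : Poly) (v : ℕ → ℝ) :
    Poly.eval (mulT t q) v = (t.2 : ℝ) * t.1.eval v * Poly.eval q v := by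
  induction q with
  | nil => simp [mulT, Poly.eval]
  | cons s q ih =>
    simp only [mulT, Poly.eval, ih, Mon.eval_mul]
    push_cast
    ring

def Poly.mul : Poly → Poly → Poly
  | [], _ => []
  | t :: p, q => Poly.add (mulT t q) (Poly.mul p q)

theorem Poly.eval_mul (p q : Poly) (v : ℕ → ℝ) :
    Poly.eval (Poly.mul p q) v = Poly.eval p v * Poly.eval q v := by
  induction p with
  | nil => simp [Poly.mul, Poly.eval]
  | cons t p ih =>
    simp only [Poly.mul, Poly.eval_add, eval_mulT, ih, Poly.eval]
    ring

def Poly.one : Poly := [((0, 0, 0, 0), 1)]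

theorem Poly.eval_one (v : ℕ → ℝ) : Poly.eval Poly.one v = 1 := by
  simp [Poly.one, Poly.eval, Mon.eval]

def Poly.pow (p : Poly) : ℕ → Poly
  | 0 => Poly.one
  | k + 1 => Poly.mul p (Poly.pow p k)

theorem Poly.eval_pow (p : Poly) (k : ℕ) (v : ℕ → ℝ) :
    Poly.eval (Poly.pow p k) v = Poly.eval p v ^ k := by
  induction k with
  | zero => simp [Poly.pow, Poly.eval_one]
  | succ k ih =>
    simp only [Poly.pow, Poly.eval_mul, ih]
    ring

/-- polynomial expressions in the variables `v 0, v 1, v 2, v 3` -/
inductive PE where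
  | var : Fin 4 → PE
  | const : ℚ → PE
  | add : PE → PE → PE
  | mul : PE → PE → PE
  | pow : PE → ℕ → PE

noncomputable def PE.eval : PE → (ℕ → ℝ) → ℝ
  | .var i, v => v i.val
  | .const q, _ => (q : ℝ)
  | .add a b, v => a.eval v + b.eval v
  | .mul a b, v => a.eval v * b.eval v
  | .pow a k, v => a.eval v ^ k

def varMon (i : Fin 4) : Mon :=
  (if i.val = 0 then 1 else 0, if i.val = 1 then 1 else 0, if i.val = 2 then 1 else 0,
    if i.val = 3 then 1 else 0)

def PE.norm : PE → Poly
  | .var i => [(varMon i, 1)]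
  | .const q => [((0, 0, 0, 0), q)]
  | .add a b => Poly.add a.norm b.norm
  | .mul a b => Poly.mul a.norm b.norm
  | .pow a k => Poly.pow a.norm k

theorem PE.eval_norm (e : PE) (v : ℕ → ℝ) : Poly.eval e.norm v = e.eval v := by
  induction e with
  | var i =>
    fin_cases i <;> simp [PE.norm, PE.eval, Poly.eval, Mon.eval, varMon]
  | const q => simp [PE.norm, PE.eval, Poly.eval, Mon.eval]
  | add a b iha ihb => simp [PE.norm, PE.eval, Poly.eval_add, iha, ihb]
  | mul a b iha ihb => simp [PE.norm, PE.eval, Poly.eval_mul, iha, ihb]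
  | pow a k iha => simp [PE.norm, PE.eval, Poly.eval_pow, iha]

/-! ### one polynomial with nonnegative coefficients -/

def Poly.nonneg : Poly → Bool
  | [] => true
  | t :: p => decide (0 ≤ t.2) && Poly.nonneg p

theorem Poly.eval_nonneg_of {p : Poly} (h : p.nonneg = true) {v : ℕ → ℝ} (hv : ∀ i, 0 ≤ v i) :
    0 ≤ Poly.eval p v := by
  induction p with
  | nil => simp [Poly.eval]
  | cons t p ih =>
    simp only [Poly.nonneg, Bool.and_eq_true, decide_eq_true_eq] at h
    have h1 : (0 : ℝ) ≤ (t.2 : ℝ) := by exact_mod_cast h.1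
    have h2 := Mon.eval_nonneg t.1 hv
    have h3 := ih h.2
    simp only [Poly.eval]
    positivity

theorem PE.nonneg_of {e : PE} (h : e.norm.nonneg = true) {v : ℕ → ℝ} (hv : ∀ i, 0 ≤ v i) :
    0 ≤ e.eval v := by
  rw [← PE.eval_norm]
  exact Poly.eval_nonneg_of h hv

/-! ### vectors -/

def dotQ : List ℚ → List ℚ → ℚ
  | a :: w, b :: t => a * b + dotQ w t
  | _, _ => 0

noncomputable def dotR : List ℚ → List ℝ → ℝ
  | a :: w, b :: t => (a : ℝ) * b + dotR w t
  | _, _ => 0

def addV : List ℚ → List ℚ → List ℚ
  | [], w => w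
  | w, [] => w
  | a :: w, b :: u => (a + b) :: addV w u

def smulV (c : ℚ) : List ℚ → List ℚ
  | [] => []
  | a :: w => (c * a) :: smulV c w

theorem dotR_nil_left (t : List ℝ) : dotR [] t = 0 := by
  cases t <;> rfl

theorem dotR_nil_right (w : List ℚ) : dotR w [] = 0 := by
  cases w <;> rfl

theorem dotR_addV : ∀ (w u : List ℚ) (t : List ℝ), dotR (addV w u) t = dotR w t + dotR u t
  | [], u, t => by simp [addV, dotR_nil_left]
  | a :: w, [], t => by simp [addV, dotR_nil_left]
  | a :: w, b :: u, [] => by simp [dotR_nil_right]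
  | a :: w, b :: u, c :: t => by
    simp only [addV, dotR, dotR_addV w u t]
    push_cast
    ring

theorem dotR_smulV (c : ℚ) : ∀ (w : List ℚ) (t : List ℝ), dotR (smulV c w) t = (c : ℝ) * dotR w t
  | [], t => by simp [smulV, dotR_nil_left]
  | a :: w, [] => by simp [dotR_nil_right]
  | a :: w, b :: t => by
    simp only [smulV, dotR, dotR_smulV c w t]
    push_cast
    ring

theorem dotQ_nil_left (t : List ℚ) : dotQ [] t = 0 := by
  cases t <;> rfl

theorem dotQ_nil_right (w : List ℚ) : dotQ w [] = 0 := by
  cases w <;> rfl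

theorem dotQ_addV_right : ∀ (w u t : List ℚ), dotQ w (addV u t) = dotQ w u + dotQ w t
  | [], u, t => by simp [dotQ_nil_left]
  | a :: w, [], t => by simp [addV, dotQ_nil_right]
  | a :: w, b :: u, [] => by simp [addV, dotQ_nil_right]
  | a :: w, b :: u, c :: t => by
    simp only [addV, dotQ, dotQ_addV_right w u t]
    ring

theorem dotQ_smulV_right (c : ℚ) : ∀ (w t : List ℚ), dotQ w (smulV c t) = c * dotQ w t
  | [], t => by simp [dotQ_nil_left]
  | a :: w, [] => by simp [smulV, dotQ_nil_right]
  | a :: w, b :: t => by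
    simp only [smulV, dotQ, dotQ_smulV_right c w t]
    ring

/-! ### polynomials with vector coefficients -/

abbrev VPoly := List (Mon × List ℚ)

/-- merge with fuel -/
def addVF : ℕ → VPoly → VPoly → VPoly
  | 0, p, q => p ++ q
  | _ + 1, [], q => q
  | _ + 1, p, [] => p
  | n + 1, s :: p, t :: q =>
    if s.1 = t.1 then (s.1, addV s.2 t.2) :: addVF n p q
    else if s.1.lt t.1 then s :: addVF n p (t :: q)
    else t :: addVF n (s :: p) q

def VPoly.add (p q : VPoly) : VPoly := addVF (p.length + q.length) p q

/-- scalar polynomial times a constant vector -/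
def smulVec (w : List ℚ) : Poly → VPoly
  | [] => []
  | t :: p => (t.1, smulV t.2 w) :: smulVec w p

/-- pairing of the vector coefficients with a real vector -/
noncomputable def VPoly.evalR : VPoly → (ℕ → ℝ) → List ℝ → ℝ
  | [], _, _ => 0
  | s :: p, v, t => s.1.eval v * dotR s.2 t + VPoly.evalR p v t

/-- pairing of the vector coefficients with a rational vector (on the left) -/
noncomputable def VPoly.evalD : VPoly → (ℕ → ℝ) → List ℚ → ℝ
  | [], _, _ => 0
  | s :: p, v, w => s.1.eval v * ((dotQ w s.2 : ℚ) : ℝ) + VPoly.evalD p v w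

theorem VPoly.evalR_append (p q : VPoly) (v : ℕ → ℝ) (t : List ℝ) :
    VPoly.evalR (p ++ q) v t = VPoly.evalR p v t + VPoly.evalR q v t := by
  induction p with
  | nil => simp [VPoly.evalR]
  | cons s p ih =>
    simp only [List.cons_append, VPoly.evalR, ih]
    ring

theorem VPoly.evalD_append (p q : VPoly) (v : ℕ → ℝ) (w : List ℚ) :
    VPoly.evalD (p ++ q) v w = VPoly.evalD p v w + VPoly.evalD q v w := by
  induction p with
  | nil => simp [VPoly.evalD]
  | cons s p ih =>
    simp only [List.cons_append, VPoly.evalD, ih]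
    ring

theorem evalR_addVF (n : ℕ) : ∀ (p q : VPoly) (v : ℕ → ℝ) (t : List ℝ),
    VPoly.evalR (addVF n p q) v t = VPoly.evalR p v t + VPoly.evalR q v t := by
  induction n with
  | zero =>
    intro p q v t
    simp [addVF, VPoly.evalR_append]
  | succ n ih =>
    intro p q v t
    cases p with
    | nil => simp [addVF, VPoly.evalR]
    | cons s p =>
      cases q with
      | nil => simp [addVF, VPoly.evalR]
      | cons r q =>
        simp only [addVF]
        split_ifs with h1 h2
        · simp only [VPoly.evalR, ih, h1, dotR_addV]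
          ring
        · simp only [VPoly.evalR, ih]
          ring
        · simp only [VPoly.evalR, ih]
          ring

theorem evalD_addVF (n : ℕ) : ∀ (p q : VPoly) (v : ℕ → ℝ) (w : List ℚ),
    VPoly.evalD (addVF n p q) v w = VPoly.evalD p v w + VPoly.evalD q v w := by
  induction n with
  | zero =>
    intro p q v w
    simp [addVF, VPoly.evalD_append]
  | succ n ih =>
    intro p q v w
    cases p with
    | nil => simp [addVF, VPoly.evalD]
    | cons s p =>
      cases q with
      | nil => simp [addVF, VPoly.evalD]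
      | cons r q =>
        simp only [addVF]
        split_ifs with h1 h2
        · simp only [VPoly.evalD, ih, h1, dotQ_addV_right]
          push_cast
          ring
        · simp only [VPoly.evalD, ih]
          ring
        · simp only [VPoly.evalD, ih]
          ring

theorem evalR_smulVec (w : List ℚ) (p : Poly) (v : ℕ → ℝ) (t : List ℝ) :
    VPoly.evalR (smulVec w p) v t = Poly.eval p v * dotR w t := by
  induction p with
  | nil => simp [smulVec, VPoly.evalR, Poly.eval]
  | cons s p ih =>
    simp only [smulVec, VPoly.evalR, Poly.eval, ih, dotR_smulV]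
    ring

theorem evalD_smulVec (u : List ℚ) (p : Poly) (v : ℕ → ℝ) (w : List ℚ) :
    VPoly.evalD (smulVec u p) v w = Poly.eval p v * ((dotQ w u : ℚ) : ℝ) := by
  induction p with
  | nil => simp [smulVec, VPoly.evalD, Poly.eval]
  | cons s p ih =>
    simp only [smulVec, VPoly.evalD, Poly.eval, ih, dotQ_smulV_right]
    push_cast
    ring

/-- `sum_j I_j * (row j of M)` -/
def buildU : List Poly → List (List ℚ) → VPoly
  | I :: Is, r :: M => VPoly.add (smulVec r I) (buildU Is M)
  | _, _ => []

/-- the bilinear form `sum_j I_j(u) * (row j of M) . t` -/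
noncomputable def bilR : List Poly → List (List ℚ) → (ℕ → ℝ) → List ℝ → ℝ
  | I :: Is, r :: M, u, t => Poly.eval I u * dotR r t + bilR Is M u t
  | _, _, _, _ => 0

theorem evalR_buildU : ∀ (Is : List Poly) (M : List (List ℚ)) (u : ℕ → ℝ) (t : List ℝ),
    VPoly.evalR (buildU Is M) u t = bilR Is M u t
  | [], M, u, t => by simp [buildU, bilR, VPoly.evalR]
  | I :: Is, [], u, t => by simp [buildU, bilR, VPoly.evalR]
  | I :: Is, r :: M, u, t => by
    simp only [buildU, bilR, VPoly.add, evalR_addVF, evalR_smulVec, evalR_buildU Is M u t]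

/-- prepend a zero to all vector coefficients -/
def shiftV : VPoly → VPoly
  | [] => []
  | s :: p => (s.1, 0 :: s.2) :: shiftV p

theorem evalD_shiftV_cons (p : VPoly) (v : ℕ → ℝ) (a : ℚ) (w : List ℚ) :
    VPoly.evalD (shiftV p) v (a :: w) = VPoly.evalD p v w := by
  induction p with
  | nil => simp [shiftV, VPoly.evalD]
  | cons s p ih =>
    simp only [shiftV, VPoly.evalD, ih, dotQ]
    simp

theorem evalD_nil (p : VPoly) (v : ℕ → ℝ) : VPoly.evalD p v [] = 0 := by
  induction p with
  | nil => simp [VPoly.evalD]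
  | cons s p ih => simp [VPoly.evalD, ih, dotQ_nil_left]

/-- the list `(J_l)` as one polynomial with vector coefficients -/
def buildJ : List Poly → VPoly
  | [] => []
  | J :: Js => VPoly.add (smulVec [1] J) (shiftV (buildJ Js))

noncomputable def evalL : List Poly → (ℕ → ℝ) → List ℝ
  | [], _ => []
  | J :: Js, v => Poly.eval J v :: evalL Js v

theorem evalD_buildJ : ∀ (Js : List Poly) (v : ℕ → ℝ) (w : List ℚ),
    VPoly.evalD (buildJ Js) v w = dotR w (evalL Js v)
  | [], v, w => by simp [buildJ, VPoly.evalD, evalL, dotR_nil_right]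
  | J :: Js, v, [] => by simp [evalD_nil, dotR_nil_left]
  | J :: Js, v, a :: w => by
    simp only [buildJ, VPoly.add, evalD_addVF, evalD_smulVec, evalD_shiftV_cons,
      evalD_buildJ Js v w, evalL, dotR, dotQ]
    simp [dotQ_nil_right]
    ring

/-- all pairings of `w` with the coefficients of `q` are nonnegative -/
def rowOK (w : List ℚ) : VPoly → Bool
  | [] => true
  | s :: q => decide (0 ≤ dotQ w s.2) && rowOK w q

def allOK (q : VPoly) : VPoly → Bool
  | [] => true
  | s :: p => rowOK s.2 q && allOK q p

theorem evalD_nonneg {w : List ℚ} {q : VPoly} (h : rowOK w q = true) {v : ℕ → ℝ}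
    (hv : ∀ i, 0 ≤ v i) : 0 ≤ VPoly.evalD q v w := by
  induction q with
  | nil => simp [VPoly.evalD]
  | cons s q ih =>
    simp only [rowOK, Bool.and_eq_true, decide_eq_true_eq] at h
    have h1 : (0 : ℝ) ≤ ((dotQ w s.2 : ℚ) : ℝ) := by exact_mod_cast h.1
    have h2 := Mon.eval_nonneg s.1 hv
    have h3 := ih h.2
    simp only [VPoly.evalD]
    positivity

theorem evalR_nonneg {Js : List Poly} {p : VPoly} (h : allOK (buildJ Js) p = true)
    {u v : ℕ → ℝ} (hu : ∀ i, 0 ≤ u i) (hv : ∀ i, 0 ≤ v i) :
    0 ≤ VPoly.evalR p u (evalL Js v) := by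
  induction p with
  | nil => simp [VPoly.evalR]
  | cons s p ih =>
    simp only [allOK, Bool.and_eq_true] at h
    have h1 := evalD_nonneg h.1 hv
    rw [evalD_buildJ] at h1
    have h2 := Mon.eval_nonneg s.1 hu
    have h3 := ih h.2
    simp only [VPoly.evalR]
    positivity

/-- the certificate test -/
def bilinOK (M : List (List ℚ)) (Is Js : List Poly) : Bool :=
  allOK (buildJ Js) (buildU Is M)

/-- Soundness: if the test succeeds then the bilinear form is nonnegative on the product of the
two nonnegative orthants. -/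
theorem bilin_nonneg {M : List (List ℚ)} {Is Js : List Poly} (h : bilinOK M Is Js = true)
    {u v : ℕ → ℝ} (hu : ∀ i, 0 ≤ u i) (hv : ∀ i, 0 ≤ v i) :
    0 ≤ bilR Is M u (evalL Js v) := by
  rw [← evalR_buildU]
  exact evalR_nonneg h hu hv

end Vale.Agent.P154.Q4C
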