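import Vale.Agent.P154.Q4C.PolyRefl

namespace Vale.Agent.P154.Q4C

/-- linear form `a * v1 + b * v2 + c * v3` -/
def linP (a b c : ℚ) : Poly := [((0, 0, 0, 1), c), ((0, 0, 1, 0), b), ((0, 1, 0, 0), a)]

def sP : Poly := [((0, 0, 0, 1), 1), ((0, 0, 1, 0), 1), ((0, 1, 0, 0), 1), ((1, 0, 0, 0), 1)]

def x1P (l : ℚ) : Poly := linP l l (l / 3)
def x2P (l : ℚ) : Poly := linP l 0 (l / 3)
def x3P (l : ℚ) : Poly := linP l 0 (-l / 3)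

def p2P (l : ℚ) : Poly :=
  Poly.add (Poly.pow (x1P l) 2) (Poly.add (Poly.pow (x2P l) 2) (Poly.pow (x3P l) 2))
def mP (l : ℚ) : Poly := Poly.mul (x1P l) (Poly.mul (x2P l) (x3P l))
def s4P (l : ℚ) : Poly :=
  Poly.add (Poly.pow (x1P l) 4) (Poly.add (Poly.pow (x2P l) 4) (Poly.pow (x3P l) 4))

/-- `p2^a m^b s4^c s^(D - deg)` -/
def invP (l : ℚ) (D : ℕ) (e : ℕ × ℕ × ℕ) : Poly :=
  Poly.mul (Poly.pow sP (D - (2 * e.1 + 3 * e.2.1 + 4 * e.2.2)))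
    (Poly.mul (Poly.pow (p2P l) e.1) (Poly.mul (Poly.pow (mP l) e.2.1) (Poly.pow (s4P l) e.2.2)))

def keysX4 : List (ℕ × ℕ × ℕ) := [(0, 0, 1), (0, 1, 0), (0, 1, 1), (0, 2, 0), (1, 0, 0), (1, 0, 1), (1, 1, 0), (2, 0, 0), (2, 1, 0), (3, 0, 0)]

def MX4 : List (List ℚ) :=
  [[(29/72), 0, 0, 0, 0, (-5/24), (-8/9), (41/648), 0, (1/8)],
  [0, 0, 0, 0, 0, 0, 0, (-35/216), 0, 0],
  [0, 0, (-107/18), (-14/3), 0, (1/6), 0, 0, (5/2), (-1/18)],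
  [0, 0, (-14/3), 35, 0, (5/2), (-8), 0, (10/3), (-11/6)],
  [0, 0, 0, 0, 0, 0, 0, (167/1620), 0, 0],
  [(-5/24), 0, (1/6), (5/2), 0, (13/24), (2/3), (1/8), (-5/18), (-7/24)],
  [(-8/9), 0, 0, (-8), 0, (2/3), (11/9), (179/108), (5/9), (-2/3)],
  [(-5/216), (-7/72), 0, 0, (1/60), (1/8), (55/36), (-197/648), 0, (-1/8)],
  [0, 0, (5/2), (10/3), 0, (-5/18), (5/9), 0, (-35/18), (5/18)],
  [(1/8), 0, (-1/18), (-11/6), 0, (-7/24), (-2/3), (-1/8), (5/18), (13/72)]]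

set_option maxRecDepth 100000 in
theorem x4_ok : bilinOK MX4 (keysX4.map (invP 1 7)) (keysX4.map (invP (3/5) 7)) = true := by
  decide +kernel

end Vale.Agent.P154.Q4C
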